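import Vale.Agent.Results.P237.A_PettyFewFacets

/-!
# Petty's conjectured projection inequality in `ℝ^3` for two classes of bodies, with the
projection body identified through its support function

In any three-dimensional real inner product space `E`:

1. For every convex body `K` (compact, convex, nonempty interior) the set
   `projBody K = {x | ∀ u, ⟪x, u⟫ ≤ ‖u‖ · vol_2(proj_{u^⊥} K)}` is compact, convex and symmetric
   about the origin, and its support function is `u ↦ ‖u‖ · vol_2(proj_{u^⊥} K)`: the maximum of
   `⟪x, u⟫` over `x ∈ projBody K` is attained and equals `‖u‖ · vol_2(proj_{u^⊥} K)`.  So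
   `projBody K` is the projection body `Π K` of `K`, defined through its support function.
2. `|Π K| ≥ (15/2) |K|^2 > (3 π^2/4) |K|^2` for every `K` that is a zonotope with at most six
   generators, or a convex body whose projection body is such a zonotope.  Here
   `3 π^2 / 4 = κ_2^3 / κ_3` is the constant of Petty's conjecture for `n = 3`.

Part 2 is the statement of the hand-in `A_PettyFewFacets` of this folder.
-/

namespace Vale.Agent.Results.P237.A0_PettySupportFunctionForm

open MeasureTheory Vale.Agent.H64

section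

variable {E : Type*} [NormedAddCommGroup E] [InnerProductSpace ℝ E] [FiniteDimensional ℝ E]
  [MeasurableSpace E] [BorelSpace E]

theorem projBody_convex (K : Set E) : Convex ℝ (projBody K) := by
  intro x hx y hy a b ha hb hab u
  have h1 := mul_le_mul_of_nonneg_left (hx u) ha
  have h2 := mul_le_mul_of_nonneg_left (hy u) hb
  have h3 : a * (‖u‖ * (projVolume K u).toReal) + b * (‖u‖ * (projVolume K u).toReal) =
      ‖u‖ * (projVolume K u).toReal := by
    rw [← add_mul, hab, one_mul]
  rw [inner_add_left, real_inner_smul_left, real_inner_smul_left]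
  linarith

theorem projBody_isClosed (K : Set E) : IsClosed (projBody K) := by
  have h : projBody K = ⋂ u : E, {x : E | inner ℝ x u ≤ ‖u‖ * (projVolume K u).toReal} := by
    ext x
    rw [Set.mem_iInter]
    exact Iff.rfl
  rw [h]
  exact isClosed_iInter fun u => isClosed_le (by fun_prop) continuous_const

theorem projBody_neg_mem (K : Set E) {x : E} (hx : x ∈ projBody K) : -x ∈ projBody K := by
  intro u
  have h := hx (-u)
  have h2 : ‖-u‖ * (projVolume K (-u)).toReal = ‖u‖ * (projVolume K u).toReal := bright_neg K u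
  rw [h2, inner_neg_right] at h
  rw [inner_neg_left]
  exact h

theorem projBody_isBounded (K : Set E) : Bornology.IsBounded (projBody K) := by
  refine (Metric.isBounded_iff_subset_closedBall (0 : E)).mpr
    ⟨Real.sqrt (∑ i, (bright K (stdOrthonormalBasis ℝ E i)) ^ 2), ?_⟩
  intro x hx
  rw [mem_closedBall_zero_iff]
  have habs : ∀ u : E, |inner ℝ x u| ≤ bright K u := by
    intro u
    rw [abs_le]
    refine ⟨?_, hx u⟩
    have h := projBody_neg_mem K hx u
    rw [inner_neg_left] at h
    have h' : -inner ℝ x u ≤ bright K u := h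
    linarith
  have h1 : ‖x‖ ^ 2 = ∑ i, (inner ℝ (stdOrthonormalBasis ℝ E i) x) ^ 2 :=
    ((stdOrthonormalBasis ℝ E).sum_sq_inner_right x).symm
  have h2 : ‖x‖ ^ 2 ≤ ∑ i, (bright K (stdOrthonormalBasis ℝ E i)) ^ 2 := by
    rw [h1]
    refine Finset.sum_le_sum fun i _ => ?_
    rw [real_inner_comm]
    exact sq_le_sq' (by linarith [abs_le.mp (habs (stdOrthonormalBasis ℝ E i))])
      (abs_le.mp (habs (stdOrthonormalBasis ℝ E i))).2
  exact Real.le_sqrt_of_sq_le h2

theorem projBody_support (hE : Module.finrank ℝ E = 3) {K : Set E} (hK : IsCompact K)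
    (hKc : Convex ℝ K) (hint : (interior K).Nonempty) (u : E) :
    IsGreatest ((fun x : E => inner ℝ x u) '' projBody K) (‖u‖ * (projVolume K u).toReal) := by
  obtain ⟨x₀, hx₀⟩ := hint
  obtain ⟨ε, hε, hεsub⟩ := Metric.isOpen_iff.mp isOpen_interior x₀ hx₀
  have hball : Metric.closedBall x₀ (ε / 2) ⊆ K :=
    (Metric.closedBall_subset_ball (by linarith)).trans (hεsub.trans interior_subset)
  obtain ⟨x, hx, hxu⟩ :=
    exists_mem_projBody_inner_eq hE hK hKc (by linarith : 0 < ε / 2) hball u
  refine ⟨⟨x, hx, hxu⟩, ?_⟩
  rintro _ ⟨y, hy, rfl⟩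
  exact hy u

end

theorem result : ∀ {E : Type} [NormedAddCommGroup E] [InnerProductSpace ℝ E]
    [FiniteDimensional ℝ E] [MeasurableSpace E] [BorelSpace E], Module.finrank ℝ E = 3 →
    (∀ K : Set E, IsCompact K → Convex ℝ K → (interior K).Nonempty →
      IsCompact (projBody K) ∧ Convex ℝ (projBody K) ∧ (∀ x ∈ projBody K, -x ∈ projBody K) ∧
        ∀ u : E, IsGreatest ((fun x : E => inner ℝ x u) '' projBody K)
          (‖u‖ * (projVolume K u).toReal)) ∧
    (∀ K : Set E,
      (IsSegmentSum 6 K ∨
        (IsCompact K ∧ Convex ℝ K ∧ (interior K).Nonempty ∧ IsSegmentSum 6 (projBody K))) →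
      ENNReal.ofReal (15 / 2) * volume K ^ 2 ≤ volume (projBody K) ∧
        (volume K ≠ 0 →
          ENNReal.ofReal (3 * Real.pi ^ 2 / 4) * volume K ^ 2 < volume (projBody K))) := by
  intro E _ _ _ _ _ hE
  refine ⟨fun K hK hKc hint => ⟨Metric.isCompact_of_isClosed_isBounded (projBody_isClosed K)
    (projBody_isBounded K), projBody_convex K, fun x hx => projBody_neg_mem K hx,
    fun u => projBody_support hE hK hKc hint u⟩, fun K h => ?_⟩
  exact Vale.Agent.Results.P237.A_PettyFewFacets.result hE K h

end Vale.Agent.Results.P237.A0_PettySupportFunctionForm
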