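import Vale.Agent.H64.Petty.SegSum

/-!
# Petty's conjectured projection inequality for zonotopes with at most six generators in `ℝ^3`

For a convex body `K ⊆ ℝ^n` the projection body `Π K` has support function
`h(u) = vol_{n-1}(proj_{u^⊥} K)` for unit vectors `u`.  Petty's conjecture states
`|Π K| ≥ κ_{n-1}^n κ_n^{2-n} |K|^{n-1}`, with equality exactly for ellipsoids.  For `n = 3` the
constant is `κ_2^3 / κ_3 = π^3 / (4 π / 3) = 3 π^2 / 4`.

Here, in any three-dimensional real inner product space (in particular in Euclidean `ℝ^3`): for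
every zonotope `K = ∑ᵢ [pᵢ, qᵢ]` (Minkowski sum of at most six segments),
`|Π K| ≥ (15/2) |K|^2 ≥ (3 π^2 / 4) |K|^2`, with strict inequality in Petty's inequality when
`|K| ≠ 0`; and `|Π K| = 8 |K|^2` when there are at most five segments.
-/

namespace Vale.Agent.Results.P237.A_PettyZonotopeSix

open MeasureTheory Vale.Agent.H64

theorem result : ∀ {E : Type} [NormedAddCommGroup E] [InnerProductSpace ℝ E]
    [FiniteDimensional ℝ E] [MeasurableSpace E] [BorelSpace E], Module.finrank ℝ E = 3 →
    (∀ K : Set E, IsSegmentSum 6 K →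
      ENNReal.ofReal (3 * Real.pi ^ 2 / 4) * volume K ^ 2 ≤ volume (projBody K) ∧
        (volume K ≠ 0 →
          ENNReal.ofReal (3 * Real.pi ^ 2 / 4) * volume K ^ 2 < volume (projBody K)) ∧
        ENNReal.ofReal (15 / 2) * volume K ^ 2 ≤ volume (projBody K) ∧
        volume (projBody K) < ⊤) ∧
    (∀ K : Set E, IsSegmentSum 5 K → volume (projBody K) = 8 * volume K ^ 2) := by
  intro E _ _ _ _ _ h
  constructor
  · rintro K ⟨p, q, rfl⟩
    exact petty_six_segments h p q
  · rintro K ⟨p, q, rfl⟩
    exact projBody_five_segments h p q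

end Vale.Agent.Results.P237.A_PettyZonotopeSix
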