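import Vale.Agent.Results.P237.A_PettyFewFacets
import Vale.Agent.Results.P237.A_PettyZonotopeSix

/-!
# Petty's conjectured projection inequality in `ℝ^3`: two classes of bodies, and the exact value
for zonotopes with at most five generators

In any three-dimensional real inner product space, with `Π K = projBody K`:

1. `|Π K| ≥ (15/2) |K|^2 > (3 π^2/4) |K|^2` for every `K` that is a zonotope with at most six
   generators (a Minkowski sum of six segments), or a convex body whose projection body is such
   a zonotope.  Here `3 π^2 / 4 = κ_2^3 / κ_3` is the constant of Petty's conjecture for `n = 3`.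
2. `|Π K| < ∞` for every zonotope `K` with at most six generators.
3. `|Π K| = 8 |K|^2` for every zonotope `K` with at most five generators.

This is the conjunction of the statements of the hand-ins `A_PettyFewFacets` and
`A_PettyZonotopeSix` of this folder.
-/

namespace Vale.Agent.Results.P237.A1_PettyClassesAndIdentity

open MeasureTheory Vale.Agent.H64

theorem result : ∀ {E : Type} [NormedAddCommGroup E] [InnerProductSpace ℝ E]
    [FiniteDimensional ℝ E] [MeasurableSpace E] [BorelSpace E], Module.finrank ℝ E = 3 →
    (∀ K : Set E,
      (IsSegmentSum 6 K ∨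
        (IsCompact K ∧ Convex ℝ K ∧ (interior K).Nonempty ∧ IsSegmentSum 6 (projBody K))) →
      ENNReal.ofReal (15 / 2) * volume K ^ 2 ≤ volume (projBody K) ∧
        (volume K ≠ 0 →
          ENNReal.ofReal (3 * Real.pi ^ 2 / 4) * volume K ^ 2 < volume (projBody K))) ∧
    (∀ K : Set E, IsSegmentSum 6 K → volume (projBody K) < ⊤) ∧
    (∀ K : Set E, IsSegmentSum 5 K → volume (projBody K) = 8 * volume K ^ 2) := by
  intro E _ _ _ _ _ hE
  have h2 := Vale.Agent.Results.P237.A_PettyZonotopeSix.result hE
  exact ⟨fun K h => Vale.Agent.Results.P237.A_PettyFewFacets.result hE K h,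
    fun K hK => (h2.1 K hK).2.2.2, h2.2⟩

end Vale.Agent.Results.P237.A1_PettyClassesAndIdentity
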