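import Vale.Agent.H64.BM.Bright

/-!
# Petty's conjectured projection inequality for two classes of bodies in `ℝ^3`

For a convex body `K ⊆ ℝ^n` the projection body `Π K` has support function
`h(u) = vol_{n-1}(proj_{u^⊥} K)` for unit vectors `u`.  Petty's conjecture states
`|Π K| ≥ κ_{n-1}^n κ_n^{2-n} |K|^{n-1}`, with equality exactly for ellipsoids.  For `n = 3` the
constant is `κ_2^3 / κ_3 = 3 π^2 / 4`.

Here, in any three-dimensional real inner product space: `|Π K| ≥ (15/2) |K|^2 > (3 π^2/4) |K|^2`
for every `K` that is

* a zonotope with at most six generators (a Minkowski sum of six segments), or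
* a convex body whose projection body `Π K` is a zonotope with at most six generators
  (by Cauchy's projection formula these are the convex polytopes all of whose facet normals lie
  on at most six lines through the origin, for instance every polytope with at most six facets).

The second class is reduced to the first by the inequality `|K|^2 |Π Π K| ≤ |Π K|^3`, proved here
from the Brunn-Minkowski inequality in dimension three (Minkowski's first inequality for `K` and
the zonotope `Π Π K`).
-/

namespace Vale.Agent.Results.P237.A_PettyFewFacets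

open MeasureTheory Vale.Agent.H64

theorem result : ∀ {E : Type} [NormedAddCommGroup E] [InnerProductSpace ℝ E]
    [FiniteDimensional ℝ E] [MeasurableSpace E] [BorelSpace E], Module.finrank ℝ E = 3 →
    ∀ K : Set E,
      (IsSegmentSum 6 K ∨
        (IsCompact K ∧ Convex ℝ K ∧ (interior K).Nonempty ∧ IsSegmentSum 6 (projBody K))) →
      ENNReal.ofReal (15 / 2) * volume K ^ 2 ≤ volume (projBody K) ∧
        (volume K ≠ 0 →
          ENNReal.ofReal (3 * Real.pi ^ 2 / 4) * volume K ^ 2 < volume (projBody K)) := by
  intro E _ _ _ _ _ hE K h
  rcases h with hZ | ⟨hK, hKc, hint, hZ⟩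
  · obtain ⟨p, q, rfl⟩ := hZ
    have := petty_six_segments hE p q
    exact ⟨this.2.2.1, this.2.1⟩
  · have h1 := petty_projBody_six hE hK hKc hint hZ
    refine ⟨h1, fun hne => lt_of_lt_of_le ?_ h1⟩
    have hfin : volume K ≠ ⊤ := hK.measure_lt_top.ne
    have hlt : ENNReal.ofReal (3 * Real.pi ^ 2 / 4) < ENNReal.ofReal (15 / 2) :=
      (ENNReal.ofReal_lt_ofReal_iff (by norm_num)).mpr (by nlinarith [pi_sq_lt_ten])
    exact ENNReal.mul_lt_mul_left (pow_ne_zero 2 hne) (ENNReal.pow_ne_top hfin) hlt

end Vale.Agent.Results.P237.A_PettyFewFacets
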